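import Vale.Agent.P192.Final

/-- There is an infinite periodic group with an ordinary finite presentation. -/
theorem Vale.Agent.Results.P192.Periodic.result :
    ∃ (n : ℕ) (rels : Set (FreeGroup (Fin n))), rels.Finite ∧
      Infinite (FreeGroup (Fin n) ⧸ Subgroup.normalClosure rels) ∧
      ∀ g : FreeGroup (Fin n) ⧸ Subgroup.normalClosure rels, IsOfFinOrder g := by
  obtain ⟨G, _, hfp, hinf, hper⟩ := Vale.Agent.P192.exists_group
  obtain ⟨n, rels, hfin, ⟨e⟩⟩ := Group.IsFinitelyPresented.exists_mulEquiv_presentedGroup (G := G)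
  let e' : G ≃* (FreeGroup (Fin n) ⧸ Subgroup.normalClosure rels) := e
  refine ⟨n, rels, hfin, Infinite.of_injective e' e'.injective, fun g => ?_⟩
  have h := e'.toMonoidHom.isOfFinOrder (hper (e'.symm g))
  simpa using h
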